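import Mathlib
import Vale.Agent.P068.PCMain
import Vale.Agent.P068.Examples

namespace Vale.Agent.Results.P068.FamilyPackingCovering

open Vale.Agent.P068
open scoped Function Matroid

theorem result {α Θ : Type*} (E : Set α) (M : Θ → Matroid α) (hE : ∀ i, (M i).E = E) :
    (∀ (θ₀ : Θ) (T : Set Θ), T.Finite →
      (∀ i, i = θ₀ ∨ (i ∈ T ∧ IsFiniteSumNU (M i)) ∨ IsUniform (M i)) →
        HasPackingCovering M E) ∧
    (∀ A : Set Θ, (∀ i, i ∉ A → IsUniform (M i)) →
      HasPackingCovering (fun i : A => M i.1) E → HasPackingCovering M E) ∧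
    (∀ N : Matroid α, IsUniform N → NearlyUniform N) ∧
    (∀ N : Matroid α, N.RankFinite → NearlyUniform N) ∧
    (∀ N : Matroid α, N✶.RankFinite → NearlyUniform N) :=
  ⟨fun θ₀ T hT h => packingCovering_main M E hE θ₀ T hT h,
    fun A hU h => hasPackingCovering_of_subfamily M E hE A hU h,
    nearlyUniform_of_uniform,
    fun N _ => nearlyUniform_of_rankFinite N,
    fun N _ => nearlyUniform_of_dual_rankFinite N⟩

end Vale.Agent.Results.P068.FamilyPackingCovering
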