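import Mathlib
import Vale.Agent.P068.Main
import Vale.Agent.P068.Examples

namespace Vale.Agent.Results.P068.NearlyUniformSum

open Vale.Agent.P068
open scoped Function Matroid

theorem result {α ι : Type*} [Finite ι] :
    (∀ (M : Matroid α) (N : ι → Matroid α) (hdj : Pairwise (Disjoint on fun i => (N i).E)),
      M.E = ⋃ i, (N i).E → (∀ i, NearlyUniform (N i)) →
        SatisfiesIntersection M (Matroid.disjointSigma N hdj)) ∧
    (∀ N : Matroid α, (∀ X ⊆ N.E, N.Indep X ∨ N.Spanning X) → NearlyUniform N) ∧
    (∀ N : Matroid α, N.RankFinite → NearlyUniform N) ∧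
    (∀ N : Matroid α, N✶.RankFinite → NearlyUniform N) :=
  ⟨fun M N hdj hE hN => intersection_of_nearlyUniform_sum M N hdj hE hN,
    nearlyUniform_of_uniform,
    fun N _ => nearlyUniform_of_rankFinite N,
    fun N _ => nearlyUniform_of_dual_rankFinite N⟩

end Vale.Agent.Results.P068.NearlyUniformSum
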